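import Vale.Agent.P062.Data.a0_0
import Vale.Agent.P062.Data.a0_1
import Vale.Agent.P062.Data.a0_2

namespace Vale.Agent.P062

theorem good_a0 : Good (S 549755813888)
    (S 57894719463138782580751621571746356674109046921029184508689785892729113247743) :=
  good_of_allG
    (run_a0_2 (run_a0_1 (run_a0_0 trivial)))
    (by decide +kernel)

end Vale.Agent.P062
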