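import Vale.Agent.P062.Data.a1_0
import Vale.Agent.P062.Data.a1_1

namespace Vale.Agent.P062

theorem good_a1 : Good (S 549755813888)
    (S 7235266121777342328907647286427028868178939630050955606687929942021830021119) :=
  good_of_allG
    (run_a1_1 (run_a1_0 trivial))
    (by decide +kernel)

end Vale.Agent.P062
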