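import Vale.Agent.P062.Data.a2_0

namespace Vale.Agent.P062

theorem good_a2 : Good (S 549755813888)
    (S 57892731571465520874176596400614696051047849292451779382276458552815563718654) :=
  good_of_allG
    (run_a2_0 trivial)
    (by decide +kernel)

end Vale.Agent.P062
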