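import Vale.Agent.P062.Data.a4_0

namespace Vale.Agent.P062

theorem good_a4 : Good (S 549755813888)
    (S 14470587834977051773706883470717017342173632897972099244405547356948946362367) :=
  good_of_allG
    (run_a4_0 trivial)
    (by decide +kernel)

end Vale.Agent.P062
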