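import Vale.Agent.P062.Data.a6_0

namespace Vale.Agent.P062

theorem good_a6 : Good (S 549755813888)
    (S 57889032229318774330421218179116060168206109415430975019720427077058068103166) :=
  good_of_allG
    (run_a6_0 trivial)
    (by decide +kernel)

end Vale.Agent.P062
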