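import Vale.Agent.P062.Run

namespace Vale.Agent.P062

/-- The data of one part of the certificate. -/
def data_b0_0 : List ℕ := [
550948576384546304035619029623119872428749229794058909391239652134629602565740889068623220849051262233308252208551184113703971480331257785630110409108308063412978347223515981672241483162403993429230224333230690823778910255580473512562429917279340930750850522556739603800193910898435064448912207196387841362689633908671428136922338900994608881518676829356337043279057827058326226048620070680220998477858572400407457524434897282980820921593759683688725078580243171209389031249376047324519013161933762047485554811410199582211896069396062532645742971675319600036246570429347565930690825598170138839669332056076819803338192115188371348176185461286812744794268677554017939370458165472127742991223230565548119824611709983585072592903639915525569127209794039362343541941873474000674985822633536674750057304525925711320896030631185322989300346786463541934733645541845221283482763002153321857721317975229694329423260018341216587776563380182125819460816180528181244196971081109583207696459893430117135534378433354373951732306319423186304139261110160449853396146906356560953747632533201841767460693585517347210257918777870540310017446608527897344490538216676254920034101452084036726245642768410493841603599035800917184424858850051864770929123763026216823394811647779445757326067072908342784621927359834047884693065238539317874812916919511910783851239833460537715916222898527573044207029470596943336276581761317322091492735656476660215303785136014045396353077740947592006049821426735038730213580945653633785859360584958909750976391982001669551891672947992325400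415650089532627205693263910919830581734438250672386911141689540563789128114913188916175534634486714814938958674758628518194214366922221090804363896364569569912007534164264114576551250605233342387370568571749289720240782027988898794360900601196644551635297127176135114072763721757889580740051610092430467130278024163996606195265446919604731125133900631883763039511044170795547025439498702315860742325218543343816391957919372586831807333005615321404929163745566075552105887078478227904138166599335126694125570458490299699401576863546342654597925174677037796255565643721182450304353854076247352390493212047197305245277236746555199032257778187452764377986333239921091754235318495817131630200773731189247695073222127597874619966744020238729416394357260382863883072394742160110348350422898429253600413414717087991121782816777768890988551814171476530432626785890039196608072075127208204704384107724450047624633715710363126163212596989377161742962547758890801794003389119230951938891776]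

theorem run_b0_0 : Stk.nil.AllG →
    (Stk.cons 549764202496 7222898192317312323412803725179421360421495656860901168084481384427015373816 (Stk.cons 1572879 32 Stk.nil)).AllG :=
  allG_of_run (n := 400) (l := data_b0_0) (by decide +kernel)

end Vale.Agent.P062
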