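import Vale.Agent.P062.Data.b1_0

namespace Vale.Agent.P062

theorem good_b1 : Good (S 549764202496)
    (S 791556112203649667858051573777655341372528375044436965762797828906114089408) :=
  good_of_allG
    (run_b1_0 trivial)
    (by decide +kernel)

end Vale.Agent.P062
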