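import Vale.Agent.P062.Data.b10_0

namespace Vale.Agent.P062

theorem good_b10 : Good (S 549764202496)
    (S 57895161174905028599231684139887708337834925509591108666757493893053657612287) :=
  good_of_allG
    (run_b10_0 trivial)
    (by decide +kernel)

end Vale.Agent.P062
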