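import Vale.Agent.P062.Data.b11_0
import Vale.Agent.P062.Data.b11_1

namespace Vale.Agent.P062

theorem good_b11 : Good (S 549764202496)
    (S 28945372015140333034721153173239145724827392864117174443238941159822142177279) :=
  good_of_allG
    (run_b11_1 (run_b11_0 trivial))
    (by decide +kernel)

end Vale.Agent.P062
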