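import Vale.Agent.P062.Data.b14_0

namespace Vale.Agent.P062

theorem good_b14 : Good (S 549764202496)
    (S 57892952622813142362149187822927659087819187850956627411916880721757534584831) :=
  good_of_allG
    (run_b14_0 trivial)
    (by decide +kernel)

end Vale.Agent.P062
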