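import Vale.Agent.P062.Run

namespace Vale.Agent.P062

/-- The data of one part of the certificate. -/
def data_b1_0 : List ℕ := [
4619409070409431117243401742015662169003201276127238676418868575706128650395256701050003276071398200057199925149264329889156479761290913689871009016194698705305562081390839497397968282559586117205962001486926761013436674850912939644892725804880861233317118077761891218507920510132761051405616359499744591139035734954713568049627382828115632120043937995945759590748689208539373190730962285688462173962622120658660322528108448567021531134518543388493329020650849292873687878946058553125096640134243961724681313263558654931362940374485396835735195422884912193845101418802370302891454057114788667238229095405563868900055504626848012528903965466898901356504871259940598375941882715689414775737493012531501417746976954420348219784327833157040862960538831922331040595204492058360177317660448485262544163602206053954967990422928327744195641672442828923037238999808340048225348208233000965736021071407128061979147462706077308598001113014428957730915529986076292037512227924399485919083034736974930861533914170850306332494230736299459750976902810648108528619482619273743983300583247146625967160348309596297051206766980454413620541988987449447039073373889152997757215207447938924072915208562039265649322002378572149824455697582146740582077081627174818450234698985958783525883519990739626784970599303480144827641590211645655659258406571722064597083454690902769539016940650853417561851880435056029692765106938477388736790091997655083695325485660836749750467450436050002463355155137150935736511793631803270561597326635070558699022930186858383679478009569346499136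58663861287417090165084946863285635047224934821317310114350464709364068075833875649567695530941381314754151571637338850676027620291034571806596201812292108593107855479697373972555128414154897502382662792650696767274496920766190073582206060964674215152251563634472061682234261760919596638365664049229358965534851313656243520648328657569637431850079227275336814000745489893380385028361626760336887236869547301092098840191653152172129058878652233133258297787910332181913849889962048426088890939894029214756027665243616518615207945803827002144079130676595410818386125320567830887336918013676701579760864278767253559497395507850460380249549993074432424799489898578666453477942171987746909391754303982831296490643002542282173512948209430418668903864897192922096926981832885120389156023765496482372113020722042126632198093679034598850138258330292390290993909396466118602182007955171183874871203482861290931601362268333996615701393992165083324886732108517359356842023266523977602867200]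

theorem run_b1_0 : Stk.nil.AllG →
    (Stk.cons 549764202496 791556112203649667858051573777655341372528375044436965762797828906114089408 (Stk.cons 1572879 32 Stk.nil)).AllG :=
  allG_of_run (n := 400) (l := data_b1_0) (by decide +kernel)

end Vale.Agent.P062
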