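import Vale.Agent.P062.Data.b2_0

namespace Vale.Agent.P062

theorem good_b2 : Good (S 549764202496)
    (S 3604478008861946371545985626309506346985803634645269517298858348378062589944) :=
  good_of_allG
    (run_b2_0 trivial)
    (by decide +kernel)

end Vale.Agent.P062
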