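import Vale.Agent.P062.Run

namespace Vale.Agent.P062

/-- The data of one part of the certificate. -/
def data_b2_0 : List ℕ := [
660496316387551317395780751706525600826944988425797128374264212883788824311231306031093901525409294820408015530205891668304238774031901003426074534181340142328379224181511517396684429148466669388848868539014413876452532693374012136515215494072135314704416561864011211838545375346732547183875702222456484645588795994576972973686506565648253496952883583134202047014190415417264052514326308314749079014666112048085917634177077805721800486027852905401272756960652134149258620198536179878682851237104165153845209211676235496156334372062003042771208511560559869365612349051714507965961614150090544852493121989917047794833243161206215020102993040317646950952248737701420689422747990185720725149015702223411885204141825506323563748197899077854879880185371580777693849365161841247279925874872806342349320159159305660088200360483521037225975130831074756635663957591313587241728190716448130403593505914924060375459828095058798155225934409018360310030110148012663073926170372341447409751944182965238811252586916105010237106851462370360870432263849206462981711594102885423857365954462048128174921575413103397197266585229451806073079679062926871526265319584073822409521611124559866950999525497928668274611433528198100460972457422235608946082023506870948216821227472489442568594087934788413110013495192076591727626891325140902336068068500144332080984521801845664630364373262479827162092935490886211747418777922592831371406766899041048417441079163347803972012040455439649706008929090339708269873507437221693995791854099129349667368987999960930121100146778775752205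961635449893814885072692529128922934615459196878440122934122149088238792145203195910261275104787447505321679904472254327533879791362800545339079178783906633638847282522695339411021618618224075540184355054704631091888119920112522983767365064942424985260020553649312511999133902527606796461026866032967224695066240058830753334751877091774291192340004986511027813377468642681077937471543762621368140001357146922534154374540905675257811662684451361815214184475051930400669834799259639960439314170898220305307078825081691929293578178312964211601714889736669946649495472005691420194996515140508012830170370239425562022224955103787200732673209793609653293380488699219865366767110823219657228704794663063681877498342090351683454374713627352875886229164167887304425266401413417770057254430326243867570619498233859162148947913795533745238152660583436110635103544400671588676232170739651201249839883460891719385504554094966070390575235118964675039544297329935424441030888269298361885040640]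

theorem run_b2_0 : Stk.nil.AllG →
    (Stk.cons 549764202496 3604478008861946371545985626309506346985803634645269517298858348378062589944 (Stk.cons 1572879 32 Stk.nil)).AllG :=
  allG_of_run (n := 400) (l := data_b2_0) (by decide +kernel)

end Vale.Agent.P062
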