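import Vale.Agent.P062.Data.b3_0

namespace Vale.Agent.P062

theorem good_b3 : Good (S 549764202496)
    (S 14472354520046020678024472868114577823440366222090685480911807723765808185343) :=
  good_of_allG
    (run_b3_0 trivial)
    (by decide +kernel)

end Vale.Agent.P062
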