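import Vale.Agent.P062.Data.b4_0

namespace Vale.Agent.P062

theorem good_b4 : Good (S 549764202496)
    (S 6897779568077745910897927736345181732072312722646576122810000738923970562040) :=
  good_of_allG
    (run_b4_0 trivial)
    (by decide +kernel)

end Vale.Agent.P062
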