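import Vale.Agent.P062.Run

namespace Vale.Agent.P062

/-- The data of one part of the certificate. -/
def data_b4_0 : List ℕ := [
352393049505906179077311819798926260994395106032652553723854707774765386628698420074231242765161949232068281093774621924826786953437077069782178322926223408657605961674149076649988160489898506642258402726029134693653777502501665125792568228672210702458166758359249769530674673478470227230018994320075195982869428441339732626732637607907427285744088625765435783737376446085441224140349659401209247613299115435524625026409628503614387939856691144016665499261592642844703029393112748178456283108921062073715623868685392353199391942510756460605660218954576751702208089714379584008050080037134524354867408233956693993895948448526122388875440446684733063745520666916316437762785696252208572733642019567810958289453568222168406302234833492969756113715636053043791700357952597701341934103803853893830950778360670779279625014898123379362348812355194556645881033073559283361720315154615195432694286063375765041293561535558923818204813739606635838958008969112790887090281438097602233208713088484743234470544779540368295625619036801246708499512300935499949766953117017144332847376643339512196507661464089620371373075843619859128374478873444122770125774955513947689499619924171082531727921130191195185254593812680194735725331088249211085529010245358851624684500323347465429575220799533778063837707602614264218429469203598526863813111174993372673719576223113626518933901070439371247322682771772587896462944373994825007880399151464694105725947532912997589553777516443969446087384952453887190914646579539330189440194786147828810489713821255705388220041208340696971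957163757643159038913193526664225547340577161084269876351136243075298845654773112097275631608322227281266989060044730446649462005765258467029030851066307080601473667445165972756157925756850309748603912187329678825619146574379930161361152871641903212502915614130177534930303093630439343767176610587455902233916783941851975591327845145964995524298842490443210518264375158648558577355888453347574609838077283310883034043695997883934967104029511328353515587884538306465023533191326949024522009102171823189981102218294975992698223283618282696130137449370539634728084147276680360368731996687523669733078415504598721210234036535903665460266241123859132658671240704076064272571419906852144040284742153753693579359943942671152551708509636755016603178425544256450017882799829892789894613391999634810539983600076969523408593759562924741220724254242484192733390662953058485108300107834449028726482557367280972416509333796192201079578101685826244975752815629501331999303576298158503938269184]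

theorem run_b4_0 : Stk.nil.AllG →
    (Stk.cons 549764202496 6897779568077745910897927736345181732072312722646576122810000738923970562040 (Stk.cons 1572879 32 Stk.nil)).AllG :=
  allG_of_run (n := 400) (l := data_b4_0) (by decide +kernel)

end Vale.Agent.P062
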