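import Vale.Agent.P062.Data.b6_0

namespace Vale.Agent.P062

theorem good_b6 : Good (S 549764202496)
    (S 6777724985295262410394667795722726241608160903909358374790840339603496902648) :=
  good_of_allG
    (run_b6_0 trivial)
    (by decide +kernel)

end Vale.Agent.P062
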