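import Vale.Agent.P062.Data.b7_0

namespace Vale.Agent.P062

theorem good_b7 : Good (S 549764202496)
    (S 901105779778702779205591403296126656355349903053456984706756984610591016703) :=
  good_of_allG
    (run_b7_0 trivial)
    (by decide +kernel)

end Vale.Agent.P062
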