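import Vale.Agent.P062.Data.f_0
import Vale.Agent.P062.Data.f_1
import Vale.Agent.P062.Data.f_2
import Vale.Agent.P062.Data.f_3
import Vale.Agent.P062.Data.f_4
import Vale.Agent.P062.Data.f_5
import Vale.Agent.P062.Data.f_6
import Vale.Agent.P062.Data.f_7
import Vale.Agent.P062.Data.f_8
import Vale.Agent.P062.Data.f_9

namespace Vale.Agent.P062

theorem good_f : Good (S 549755813888)
    (S 57895161181645426648448227652086575646285606264083537704782724516925119889407) :=
  good_of_allG
    (run_f_9 (run_f_8 (run_f_7 (run_f_6 (run_f_5 (run_f_4 (run_f_3 (run_f_2 (run_f_1 (run_f_0 trivial))))))))))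
    (by decide +kernel)

end Vale.Agent.P062
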